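import Vale.Agent.P159.T1.D.Stmts

/-!
The tilt field and its charges (rows StmtPos and IsDiv of the direct route): exact facts on the
lattice.
-/

namespace Vale.Agent.P159.T1.D

section gradient

lemma gs_add (ψ ψ' : Z2 → ℝ) : gs (ψ + ψ') = gs ψ + gs ψ' := by
  funext e
  simp only [gs, Pi.add_apply]
  ring

lemma gs_smul (a : ℝ) (ψ : Z2 → ℝ) : gs (a • ψ) = a • gs ψ := by
  funext e
  simp only [gs, Pi.smul_apply, smul_eq_mul]
  ring

/-- the outflow combination of a field at a face (`IsDiv U B ρ` says that it is `ρ` on `U`) -/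
def dv (B : Bnd → ℝ) (f : Z2) : ℝ :=
  B (f, false) - B ((f.1, f.2 + 1), false) + B ((f.1 + 1, f.2), true) - B (f, true)

lemma isDiv_iff {U : Finset Z2} {B : Bnd → ℝ} {ρ : Z2 → ℝ} :
    IsDiv U B ρ ↔ ∀ f ∈ U, dv B f = ρ f := Iff.rfl

lemma dv_add (B B' : Bnd → ℝ) (f : Z2) : dv (B + B') f = dv B f + dv B' f := by
  simp only [dv, Pi.add_apply]
  ring

lemma dv_smul (a : ℝ) (B : Bnd → ℝ) (f : Z2) : dv (a • B) f = a * dv B f := by
  simp only [dv, Pi.smul_apply, smul_eq_mul]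
  ring

lemma dv_sub (B B' : Bnd → ℝ) (f : Z2) : dv (B - B') f = dv B f - dv B' f := by
  simp only [dv, Pi.sub_apply]
  ring

/-- the gradient of a function of the sites is divergence free for the heights -/
theorem dv_gs (ψ : Z2 → ℝ) (f : Z2) : dv (gs ψ) f = 0 := by
  simp only [dv, gs, bt, bs, Bool.false_eq_true, if_false, if_true]
  ring

theorem isDiv_gs (U : Finset Z2) (ψ : Z2 → ℝ) : IsDiv U (gs ψ) 0 := fun f _ => dv_gs ψ f

lemma IsDiv.add {U : Finset Z2} {B B' : Bnd → ℝ} {ρ ρ' : Z2 → ℝ} (h : IsDiv U B ρ)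
    (h' : IsDiv U B' ρ') : IsDiv U (B + B') (ρ + ρ') := fun f hf => by
  change dv (B + B') f = ρ f + ρ' f
  rw [dv_add, isDiv_iff.1 h f hf, isDiv_iff.1 h' f hf]

lemma IsDiv.sub {U : Finset Z2} {B B' : Bnd → ℝ} {ρ ρ' : Z2 → ℝ} (h : IsDiv U B ρ)
    (h' : IsDiv U B' ρ') : IsDiv U (B - B') (ρ - ρ') := fun f hf => by
  change dv (B - B') f = ρ f - ρ' f
  rw [dv_sub, isDiv_iff.1 h f hf, isDiv_iff.1 h' f hf]

lemma IsDiv.smul {U : Finset Z2} {B : Bnd → ℝ} {ρ : Z2 → ℝ} (h : IsDiv U B ρ) (a : ℝ) :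
    IsDiv U (a • B) (a • ρ) := fun f hf => by
  change dv (a • B) f = a * ρ f
  rw [dv_smul, isDiv_iff.1 h f hf]

lemma IsDiv.mono {U U' : Finset Z2} {B : Bnd → ℝ} {ρ : Z2 → ℝ} (h : IsDiv U' B ρ)
    (hU : U ⊆ U') : IsDiv U B ρ := fun f hf => h f (hU hf)

lemma IsDiv.congr {U : Finset Z2} {B : Bnd → ℝ} {ρ ρ' : Z2 → ℝ} (h : IsDiv U B ρ)
    (hρ : ∀ f ∈ U, ρ f = ρ' f) : IsDiv U B ρ' := fun f hf => (h f hf).trans (hρ f hf)

end gradient

section cone

variable {q : ℕ} {x y : ℤ}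

lemma mem_cone : (x, y) ∈ cone q ↔ y ≤ -2 ∧ (q : ℤ) * (-1 - y) ≤ -x := Iff.rfl

lemma cone_left (h : (x, y) ∈ cone q) : (x - 1, y) ∈ cone q := by
  rw [mem_cone] at h ⊢
  omega

lemma cone_up (h : (x, y) ∈ cone q) (hy : y ≤ -3) : (x, y + 1) ∈ cone q := by
  rw [mem_cone] at h ⊢
  obtain ⟨h1, h2⟩ := h
  refine ⟨by omega, ?_⟩
  have : (q : ℤ) * (-1 - (y + 1)) = (q : ℤ) * (-1 - y) - q := by ring
  omega

/-- in the cone one is to the left of the tip -/
lemma cone_neg (hq : 1 ≤ q) (h : (x, y) ∈ cone q) : x ≤ -1 ∧ x < 0 := by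
  rw [mem_cone] at h
  obtain ⟨h1, h2⟩ := h
  have h3 : (1 : ℤ) * 1 ≤ (q : ℤ) * (-1 - y) :=
    mul_le_mul (by exact_mod_cast hq) (by omega) (by norm_num) (by positivity)
  omega

lemma cone_neg' (hq : 1 ≤ q) (h : (x, y) ∈ cone q) : (q : ℤ) ≤ -x := by
  rw [mem_cone] at h
  obtain ⟨h1, h2⟩ := h
  have h3 : (q : ℤ) * 1 ≤ (q : ℤ) * (-1 - y) :=
    mul_le_mul_of_nonneg_left (by omega) (by positivity)
  omega

end cone

/-- the two coefficients -/
noncomputable def k2 (Y V : ℝ) (q : ℕ) : ℝ := V / (Y * ang q)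

/-- the two coefficients -/
noncomputable def k1 (Y V : ℝ) (q : ℕ) : ℝ := -(V / (Y * (2 * Real.pi - ang q)))

variable {Y V : ℝ} {q : ℕ} {Γ Γ' : ℝ → ℝ}

lemma ang_pos (hq : 1 ≤ q) : 0 < ang q := by
  unfold ang
  have h : (0 : ℝ) < 1 / q := by positivity
  have := Real.arctan_strictMono h
  rwa [Real.arctan_zero] at this

lemma ang_lt (q : ℕ) : ang q < Real.pi / 2 := Real.arctan_lt_pi_div_two _

lemma two_pi_sub_ang_pos (q : ℕ) : 0 < 2 * Real.pi - ang q := by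
  have := ang_lt q
  have := Real.pi_pos
  linarith

lemma k2_pos (hY : 0 < Y) (hV : 0 < V) (hq : 1 ≤ q) : 0 < k2 Y V q :=
  div_pos hV (mul_pos hY (ang_pos hq))

lemma k1_neg (hY : 0 < Y) (hV : 0 < V) : k1 Y V q < 0 :=
  neg_neg_of_pos (div_pos hV (mul_pos hY (two_pi_sub_ang_pos q)))

open Classical in
lemma cf_eq (e : Bnd) : cf Y V q e =
    if (rt e ∈ cone q ∧ lf e ∈ cone q) ∨ (rt e ∈ cone q ∧ e.2 = false ∧ e.1.2 = -1) then
      k2 Y V q else k1 Y V q := rfl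

/-- `cf` takes two values -/
lemma cf_cases (e : Bnd) : cf Y V q e = k2 Y V q ∨ cf Y V q e = k1 Y V q := by
  rw [cf_eq]
  split_ifs
  · exact Or.inl rfl
  · exact Or.inr rfl

lemma Bf_add (e : Bnd) : Bf Y V q (Γ + Γ') e = Bf Y V q Γ e + Bf Y V q Γ' e := by
  simp only [Bf, gs, Pi.add_apply]
  ring

lemma Bf_sub (e : Bnd) : Bf Y V q (Γ - Γ') e = Bf Y V q Γ e - Bf Y V q Γ' e := by
  simp only [Bf, gs, Pi.sub_apply]
  ring

lemma Bf_smul (a : ℝ) (e : Bnd) : Bf Y V q (a • Γ) e = a * Bf Y V q Γ e := by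
  simp only [Bf, gs, Pi.smul_apply, smul_eq_mul]
  ring

/-- the charge is linear in the profile -/
theorem ro_add (f : Z2) : ro Y V q (Γ + Γ') f = ro Y V q Γ f + ro Y V q Γ' f := by
  unfold ro
  split_ifs
  · simp only [Bf_add]
    ring
  · simp

theorem ro_sub (f : Z2) : ro Y V q (Γ - Γ') f = ro Y V q Γ f - ro Y V q Γ' f := by
  unfold ro
  split_ifs
  · simp only [Bf_sub]
    ring
  · simp

theorem ro_smul (a : ℝ) (f : Z2) : ro Y V q (a • Γ) f = a * ro Y V q Γ f := by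
  unfold ro
  split_ifs
  · simp only [Bf_smul]
    ring
  · simp

/-- the charge vanishes outside the cone -/
theorem ro_of_notMem {f : Z2} (hf : f ∉ cone q) : ro Y V q Γ f = 0 := if_neg hf

/-- the divergence of the tilt field outside the cone, off the slit -/
theorem dv_Bf_of_notMem {f : Z2} (hf : f ∉ cone q) (h1 : f.2 ≠ -1 ∨ 0 ≤ f.1) (hq : 1 ≤ q) :
    dv (Bf Y V q Γ) f = 0 := by
  have e1 : cf Y V q (f, false) = k1 Y V q := by
    rw [cf_eq, if_neg]
    rintro (⟨-, h⟩ | ⟨h2, -, h3⟩)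
    · exact hf h
    · have h4 : f.2 = -1 := h3
      have h5 : (f.1, f.2 - 1) ∈ cone q := h2
      have h6 := (cone_neg hq h5).2
      omega
  have e2 : cf Y V q ((f.1, f.2 + 1), false) = k1 Y V q := by
    rw [cf_eq, if_neg]
    have h2 : rt ((f.1, f.2 + 1), false) = f := by
      simp [rt]
    rw [h2]
    rintro (⟨h, -⟩ | ⟨h, -⟩) <;> exact hf h
  have e3 : cf Y V q ((f.1 + 1, f.2), true) = k1 Y V q := by
    rw [cf_eq, if_neg]
    rintro (⟨-, h⟩ | ⟨-, h, -⟩)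
    · have h2 : lf ((f.1 + 1, f.2), true) = f := by
        simp [lf]
      rw [h2] at h
      exact hf h
    · exact absurd h (by simp)
  have e4 : cf Y V q (f, true) = k1 Y V q := by
    rw [cf_eq, if_neg]
    have h2 : rt (f, true) = f := by
      simp [rt]
    rw [h2]
    rintro (⟨h, -⟩ | ⟨h, -⟩) <;> exact hf h
  have h := dv_gs (fun P => Γ (tau P)) f
  unfold dv at h ⊢
  simp only [Bf, e1, e2, e3, e4]
  linear_combination (k1 Y V q) * h

/-- **The divergence of the tilt field off the slit is the charge.** -/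
theorem dv_Bf {f : Z2} (h1 : f.2 ≠ -1 ∨ 0 ≤ f.1) (hq : 1 ≤ q) :
    dv (Bf Y V q Γ) f = ro Y V q Γ f := by
  by_cases hf : f ∈ cone q
  · unfold ro
    rw [if_pos hf]
    rfl
  · rw [ro_of_notMem hf, dv_Bf_of_notMem hf h1 hq]

/-- a face of the slit box is off the slit -/
lemma off_slit {R r : ℕ} {f : Z2} (hf : f ∈ SB R r) : f.2 ≠ -1 ∨ 0 ≤ f.1 := by
  unfold SB at hf
  rw [Finset.mem_filter] at hf
  have := hf.2
  omega

/-- **IsDiv for the tilt field in the slit box.** -/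
theorem isDiv_Bf (R r : ℕ) (hq : 1 ≤ q) : IsDiv (SB R r) (Bf Y V q Γ) (ro Y V q Γ) :=
  fun _ hf => dv_Bf (off_slit hf) hq

/-- the same for an arbitrary set of faces off the slit -/
theorem isDiv_Bf' {U : Finset Z2} (hU : ∀ f ∈ U, f.2 ≠ -1 ∨ 0 ≤ f.1) (hq : 1 ≤ q) :
    IsDiv U (Bf Y V q Γ) (ro Y V q Γ) :=
  fun f hf => dv_Bf (hU f hf) hq

open Classical in
/-- **The charge on the cone.** -/
theorem ro_cone {x y : ℤ} (h : (x, y) ∈ cone q) :
    ro Y V q Γ (x, y) = (k2 Y V q - k1 Y V q) *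
      ((if (x, y - 1) ∈ cone q then 0 else Γ (tau (x, y)) - Γ (tau (x + 1, y))) +
        (if (x + 1, y) ∈ cone q then 0 else Γ (tau (x + 1, y)) - Γ (tau (x + 1, y + 1)))) := by
  have hy : y ≤ -2 := h.1
  have e1 : cf Y V q ((x, y + 1), false) = k2 Y V q := by
    rw [cf_eq, if_pos]
    have h2 : rt ((x, y + 1), false) = (x, y) := by simp [rt]
    rw [h2]
    by_cases h3 : y = -2
    · exact Or.inr ⟨h, rfl, by simp [h3]⟩
    · exact Or.inl ⟨h, cone_up h (by omega)⟩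
  have e2 : cf Y V q ((x, y), true) = k2 Y V q := by
    rw [cf_eq, if_pos]
    exact Or.inl ⟨h, cone_left h⟩
  have e3 : cf Y V q ((x, y), false) = if (x, y - 1) ∈ cone q then k2 Y V q else k1 Y V q := by
    rw [cf_eq]
    refine if_congr ?_ rfl rfl
    have h2 : rt ((x, y), false) = (x, y - 1) := by simp [rt]
    have h3 : lf ((x, y), false) = (x, y) := by simp [lf]
    rw [h2, h3]
    constructor
    · rintro (⟨h4, -⟩ | ⟨h4, -⟩) <;> exact h4
    · exact fun h4 => Or.inl ⟨h4, h⟩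
  have e4 : cf Y V q ((x + 1, y), true) = if (x + 1, y) ∈ cone q then k2 Y V q else k1 Y V q := by
    rw [cf_eq]
    refine if_congr ?_ rfl rfl
    have h2 : rt ((x + 1, y), true) = (x + 1, y) := by simp [rt]
    have h3 : lf ((x + 1, y), true) = (x, y) := by simp [lf]
    rw [h2, h3]
    constructor
    · rintro (⟨h4, -⟩ | ⟨-, h4, -⟩)
      · exact h4
      · exact absurd h4 (by simp)
    · exact fun h4 => Or.inl ⟨h4, h⟩
  have h0 := dv_gs (fun P => Γ (tau P)) (x, y)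
  unfold ro
  rw [if_pos h]
  unfold dv at h0
  simp only [Bf] at h0 ⊢
  rw [e1, e2, e3, e4]
  simp only [gs, bs, bt, if_true, Bool.false_eq_true, if_false] at h0 ⊢
  split_ifs <;> linear_combination (k2 Y V q) * h0

section radial

lemma tau_le {P Q : Z2} (h : P.1 ^ 2 + P.2 ^ 2 ≤ Q.1 ^ 2 + Q.2 ^ 2) : tau P ≤ tau Q := by
  unfold tau
  have h' : (P.1 : ℝ) ^ 2 + (P.2 : ℝ) ^ 2 ≤ (Q.1 : ℝ) ^ 2 + (Q.2 : ℝ) ^ 2 := by exact_mod_cast h
  rw [Real.log_sqrt (by positivity), Real.log_sqrt (by positivity)]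
  refine div_le_div_of_nonneg_right ?_ (by norm_num)
  rcases (show 0 ≤ P.1 ^ 2 + P.2 ^ 2 by positivity).eq_or_lt with h0 | h0
  · have h1 : (P.1 : ℝ) ^ 2 + (P.2 : ℝ) ^ 2 = 0 := by exact_mod_cast h0.symm
    rw [h1, Real.log_zero]
    rcases (show 0 ≤ Q.1 ^ 2 + Q.2 ^ 2 by positivity).eq_or_lt with h2 | h2
    · have h3 : (Q.1 : ℝ) ^ 2 + (Q.2 : ℝ) ^ 2 = 0 := by exact_mod_cast h2.symm
      rw [h3, Real.log_zero]
    · have h3 : (1 : ℝ) ≤ (Q.1 : ℝ) ^ 2 + (Q.2 : ℝ) ^ 2 := by exact_mod_cast h2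
      exact Real.log_nonneg h3
  · have h3 : (0 : ℝ) < (P.1 : ℝ) ^ 2 + (P.2 : ℝ) ^ 2 := by exact_mod_cast h0
    exact Real.log_le_log h3 h'

lemma tau_left {x y : ℤ} (hx : x + 1 ≤ 0) : tau (x + 1, y) ≤ tau (x, y) := by
  refine tau_le ?_
  simp only
  nlinarith

lemma tau_down {x y : ℤ} (hy : y + 1 ≤ 0) : tau (x, y + 1) ≤ tau (x, y) := by
  refine tau_le ?_
  simp only
  nlinarith

lemma tau_nonneg (P : Z2) : 0 ≤ tau P := by
  have h0 : tau (0, 0) = 0 := by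
    unfold tau
    simp
  rw [← h0]
  refine tau_le ?_
  simp only
  positivity

end radial

/-- **The charges are nonnegative.** -/
theorem ro_nonneg (hY : 0 < Y) (hV : 0 < V) (hq : 1 ≤ q) (hΓ : Monotone Γ) (f : Z2) :
    0 ≤ ro Y V q Γ f := by
  classical
  by_cases h : f ∈ cone q
  · obtain ⟨x, y⟩ := f
    have hx := cone_neg hq h
    have hy : y ≤ -2 := h.1
    rw [ro_cone h]
    refine mul_nonneg ?_ (add_nonneg ?_ ?_)
    · have := k2_pos hY hV hq
      have := k1_neg (q := q) hY hV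
      linarith
    · split_ifs
      · exact le_rfl
      · exact sub_nonneg.2 (hΓ (tau_left (by omega)))
    · split_ifs
      · exact le_rfl
      · exact sub_nonneg.2 (hΓ (tau_down (by omega)))
  · exact (ro_of_notMem h).ge

/-- row D.POS -/
theorem stmtPos : StmtPos := fun _ _ _ _ hY hV hq hΓ f => ro_nonneg hY hV hq hΓ f

/-- **The charges are monotone in the derivative of the profile.** -/
theorem ro_mono (hY : 0 < Y) (hV : 0 < V) (hq : 1 ≤ q) (hΓ : Monotone (Γ' - Γ)) (f : Z2) :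
    ro Y V q Γ f ≤ ro Y V q Γ' f := by
  have := ro_nonneg hY hV hq hΓ f
  rw [ro_sub] at this
  linarith

/-- **The charges sit in the last layer of the cone.** -/
theorem ro_support {f : Z2} (h : ro Y V q Γ f ≠ 0) :
    f ∈ cone q ∧ ((f.1, f.2 - 1) ∉ cone q ∨ (f.1 + 1, f.2) ∉ cone q) := by
  classical
  by_cases h1 : f ∈ cone q
  · refine ⟨h1, ?_⟩
    by_contra h2
    push Not at h2
    obtain ⟨x, y⟩ := f
    refine h ?_
    rw [ro_cone h1, if_pos h2.1, if_pos h2.2]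
    ring
  · exact absurd (ro_of_notMem h1) h

/-- **Window**: no charge at a face if the profile is constant on the values of `tau` at the three
corners `(x, y)`, `(x + 1, y)`, `(x + 1, y + 1)` -/
theorem ro_eq_zero_of_const {x y : ℤ} (h1 : Γ (tau (x + 1, y)) = Γ (tau (x, y)))
    (h2 : Γ (tau (x + 1, y + 1)) = Γ (tau (x + 1, y))) : ro Y V q Γ (x, y) = 0 := by
  classical
  by_cases h : (x, y) ∈ cone q
  · rw [ro_cone h, h2, h1]
    split_ifs <;> ring
  · exact ro_of_notMem h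

/-- two profiles which differ by a constant on `[α, β]` have the same charges at the faces of the
cone with `α ≤ tau ≤ β` -/
theorem ro_congr {α β c : ℝ} (h : ∀ τ, α ≤ τ → τ ≤ β → Γ τ = Γ' τ + c) {x y : ℤ} (hq : 1 ≤ q)
    (hα : α ≤ tau (x + 1, y + 1)) (hβ : tau (x, y) ≤ β) : ro Y V q Γ (x, y) = ro Y V q Γ' (x, y) := by
  classical
  by_cases hc : (x, y) ∈ cone q
  · have hx := cone_neg hq hc
    have hy : y ≤ -2 := hc.1
    have h1 : tau (x + 1, y) ≤ tau (x, y) := tau_left (by omega)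
    have h2 : tau (x + 1, y + 1) ≤ tau (x + 1, y) := tau_down (by omega)
    rw [ro_cone hc, ro_cone hc, h _ (by linarith) hβ, h _ (by linarith) (by linarith),
      h _ hα (by linarith)]
    congr 1
    congr 1 <;> split_ifs <;> ring
  · rw [ro_of_notMem hc, ro_of_notMem hc]

/-! ### the other tip -/

/-- reflection of the bonds which exchanges the two tips -/
def mirB (r : ℕ) (e : Bnd) : Bnd :=
  if e.2 then (((r : ℤ) - e.1.1, e.1.2), true) else (((r : ℤ) - 1 - e.1.1, e.1.2), false)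

/-- the reflected field -/
def mB (r : ℕ) (B : Bnd → ℝ) (e : Bnd) : ℝ := if e.2 then -B (mirB r e) else B (mirB r e)

lemma mir_mir (r : ℕ) (f : Z2) : mir r (mir r f) = f := by
  ext <;> simp [mir]

lemma mirB_mirB (r : ℕ) (e : Bnd) : mirB r (mirB r e) = e := by
  obtain ⟨⟨x, y⟩, b⟩ := e
  cases b <;> simp [mirB]

theorem dv_mB (r : ℕ) (B : Bnd → ℝ) (f : Z2) : dv (mB r B) f = dv B (mir r f) := by
  obtain ⟨x, y⟩ := f
  simp only [dv, mB, mirB, mir, Bool.false_eq_true, if_false, if_true]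
  have e1 : ((r : ℤ) - (x + 1), y) = ((r : ℤ) - 1 - x, y) := by
    rw [show (r : ℤ) - (x + 1) = (r : ℤ) - 1 - x by ring]
  have e2 : ((r : ℤ) - x, y) = ((r : ℤ) - 1 - x + 1, y) := by
    rw [show (r : ℤ) - x = (r : ℤ) - 1 - x + 1 by ring]
  rw [e1, e2]
  ring

/-- the reflected field has the reflected charge -/
theorem IsDiv.mir {U : Finset Z2} {B : Bnd → ℝ} {ρ : Z2 → ℝ} {r : ℕ} (h : IsDiv U B ρ)
    (hU : ∀ f ∈ U, mir r f ∈ U) : IsDiv U (mB r B) (fun f => ρ (D.mir r f)) := fun f hf => by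
  change dv (mB r B) f = _
  rw [dv_mB]
  exact h _ (hU f hf)

/-- the slit box is invariant under the reflection -/
theorem mir_SB {R r : ℕ} {f : Z2} (hf : f ∈ SB R r) : mir r f ∈ SB R r := by
  unfold SB mir at *
  rw [Finset.mem_filter, Finset.mem_product, Finset.mem_Ico, Finset.mem_Ico] at hf ⊢
  obtain ⟨⟨⟨h1, h2⟩, h3, h4⟩, h5⟩ := hf
  refine ⟨⟨⟨?_, ?_⟩, h3, h4⟩, ?_⟩ <;> simp only at * <;> omega

/-- **IsDiv for the two tilt fields together.** -/
theorem isDiv_two (R r : ℕ) (hq : 1 ≤ q) :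
    IsDiv (SB R r) (Bf Y V q Γ + mB r (Bf Y V q Γ'))
      (fun f => ro Y V q Γ f + ro Y V q Γ' (mir r f)) :=
  (isDiv_Bf R r hq).add ((isDiv_Bf R r hq).mir fun _ => mir_SB)

end Vale.Agent.P159.T1.D
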