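import Vale.Agent.P159.T1.D.H407.Tilt

/-!
Row ARM.1 of the direct route: the two parts of the charges on the two sides of a cell are
nonnegative, dominated by the charges of the strip, and supported in the two strips.
-/

open Filter Topology

namespace Vale.Agent.P159.T1.D

variable {Y V : ℝ} {q : ℕ} {Γ Γ' ΓA ΓB : ℝ → ℝ}

/-- a profile with slopes in `[0, 1]` which is constant outside the window is dominated by `clp` -/
lemma clp_sub_mono {a A : ℝ} (h1 : ∀ s t, s ≤ t → Γ t - Γ s ≤ t - s)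
    (h2 : ∀ t, t ≤ Real.log a → Γ t = Γ (Real.log a))
    (h3 : ∀ t, Real.log A ≤ t → Γ t = Γ (Real.log A)) (h : Real.log a ≤ Real.log A) :
    Monotone (clp a A - Γ) := by
  have key : ∀ t, Γ t = Γ (clp a A t) := by
    intro t
    unfold clp
    rcases le_total t (Real.log A) with h4 | h4
    · rw [min_eq_left h4]
      rcases le_total t (Real.log a) with h5 | h5
      · rw [max_eq_left h5, h2 t h5]
      · rw [max_eq_right h5]
    · rw [min_eq_right h4, max_eq_right h, h3 t h4]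
  have hm : Monotone (clp a A) := fun s t hst =>
    max_le_max le_rfl (min_le_min hst le_rfl)
  intro s t hst
  change clp a A s - Γ s ≤ clp a A t - Γ t
  rw [key s, key t]
  have := h1 _ _ (hm hst)
  linarith

/-- the slope of a sum of two profiles with separated supports -/
lemma slope_add {c : ℝ} (hA : ∀ s t, s ≤ t → ΓA t - ΓA s ≤ t - s)
    (hB : ∀ s t, s ≤ t → ΓB t - ΓB s ≤ t - s) (hA' : ∀ t, c ≤ t → ΓA t = ΓA c)
    (hB' : ∀ t, t ≤ c → ΓB t = ΓB c) (s t : ℝ) (hst : s ≤ t) :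
    (ΓA + ΓB) t - (ΓA + ΓB) s ≤ t - s := by
  simp only [Pi.add_apply]
  rcases le_total t c with h1 | h1
  · rw [hB' t h1, hB' s (hst.trans h1)]
    linarith [hA s t hst]
  · rcases le_total s c with h2 | h2
    · rw [hA' t h1, hB' s h2]
      linarith [hA s c h2, hB c t h1]
    · rw [hA' t h1, hA' s h2]
      linarith [hB s t hst]

/-- where the charge is not zero, the window of the profile is met -/
lemma ro_window {α β : ℝ} (hq : 1 ≤ q) (hα : ∀ t, t ≤ α → Γ t = Γ α)
    (hβ : ∀ t, β ≤ t → Γ t = Γ β) {x y : ℤ} (h : ro Y V q Γ (x, y) ≠ 0) :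
    α < tau (x, y) ∧ tau (x + 1, y + 1) < β := by
  have hc : (x, y) ∈ cone q := (ro_support h).1
  have hx := cone_neg hq hc
  have hy : y ≤ -2 := hc.1
  have h1 : tau (x + 1, y) ≤ tau (x, y) := tau_left (by omega)
  have h2 : tau (x + 1, y + 1) ≤ tau (x + 1, y) := tau_down (by omega)
  constructor
  · by_contra h3
    push Not at h3
    refine h (ro_eq_zero_of_const ?_ ?_)
    · rw [hα _ h3, hα _ (h1.trans h3)]
    · rw [hα _ (h1.trans h3), hα _ ((h2.trans h1).trans h3)]
  · by_contra h3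
    push Not at h3
    refine h (ro_eq_zero_of_const ?_ ?_)
    · rw [hβ _ (h3.trans h2), hβ _ ((h3.trans h2).trans h1)]
    · rw [hβ _ h3, hβ _ (h3.trans h2)]

lemma abs_le_exp_tau {P : Z2} (h : P ≠ 0) : |(P.1 : ℝ)| ≤ Real.exp (tau P) := by
  have h0 : 0 < P.1 ^ 2 + P.2 ^ 2 := by
    rcases (show 0 ≤ P.1 ^ 2 + P.2 ^ 2 by positivity).eq_or_lt with h1 | h1
    · exfalso
      have h2 : P.1 ^ 2 = 0 := by nlinarith [sq_nonneg P.1, sq_nonneg P.2]
      have h3 : P.2 ^ 2 = 0 := by nlinarith [sq_nonneg P.1, sq_nonneg P.2]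
      exact h (Prod.ext (pow_eq_zero_iff (by norm_num) |>.1 h2)
        (pow_eq_zero_iff (by norm_num) |>.1 h3))
    · exact h1
  have h1 : (0 : ℝ) < (P.1 : ℝ) ^ 2 + (P.2 : ℝ) ^ 2 := by exact_mod_cast h0
  unfold tau
  rw [Real.exp_log (Real.sqrt_pos.2 h1)]
  refine Real.abs_le_sqrt ?_
  nlinarith [sq_nonneg (P.2 : ℝ)]

lemma exp_tau_sq {P : Z2} (h : P ≠ 0) :
    Real.exp (tau P) ^ 2 = (P.1 : ℝ) ^ 2 + (P.2 : ℝ) ^ 2 := by
  have h0 : 0 < P.1 ^ 2 + P.2 ^ 2 := by
    rcases (show 0 ≤ P.1 ^ 2 + P.2 ^ 2 by positivity).eq_or_lt with h1 | h1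
    · exfalso
      have h2 : P.1 ^ 2 = 0 := by nlinarith [sq_nonneg P.1, sq_nonneg P.2]
      have h3 : P.2 ^ 2 = 0 := by nlinarith [sq_nonneg P.1, sq_nonneg P.2]
      exact h (Prod.ext (pow_eq_zero_iff (by norm_num) |>.1 h2)
        (pow_eq_zero_iff (by norm_num) |>.1 h3))
    · exact h1
  have h1 : (0 : ℝ) < (P.1 : ℝ) ^ 2 + (P.2 : ℝ) ^ 2 := by exact_mod_cast h0
  unfold tau
  rw [Real.exp_log (Real.sqrt_pos.2 h1), Real.sq_sqrt h1.le]

/-- the charge of a profile which is constant from `β` on sits in the columns `-x - 1 < exp β` -/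
lemma ro_col_lt {β : ℝ} (hq : 1 ≤ q) (hβ : ∀ t, β ≤ t → Γ t = Γ β) {x y : ℤ}
    (h : ro Y V q Γ (x, y) ≠ 0) : -(x : ℝ) - 1 < Real.exp β := by
  have hc : (x, y) ∈ cone q := (ro_support h).1
  have hx := cone_neg hq hc
  have hy : y ≤ -2 := hc.1
  have h1 : tau (x + 1, y + 1) < β := by
    by_contra h3
    push Not at h3
    have h4 : tau (x + 1, y) ≤ tau (x, y) := tau_left (by omega)
    have h5 : tau (x + 1, y + 1) ≤ tau (x + 1, y) := tau_down (by omega)
    refine h (ro_eq_zero_of_const ?_ ?_)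
    · rw [hβ _ (h3.trans h5), hβ _ ((h3.trans h5).trans h4)]
    · rw [hβ _ h3, hβ _ (h3.trans h5)]
  have h2 := abs_le_exp_tau (P := (x + 1, y + 1)) (by
    intro h0
    have := congrArg Prod.snd h0
    simp only [Prod.snd_zero] at this
    omega)
  have h3 := Real.exp_lt_exp.2 h1
  have h4 := neg_abs_le (((x + 1 : ℤ) : ℝ))
  push_cast at h2 h4
  linarith

/-- the charge of a profile which is constant up to `α` sits in the faces with `exp α < |P|` -/
lemma ro_exp_lt {α : ℝ} (hq : 1 ≤ q) (hα : ∀ t, t ≤ α → Γ t = Γ α) {x y : ℤ}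
    (h : ro Y V q Γ (x, y) ≠ 0) : Real.exp α ^ 2 < (x : ℝ) ^ 2 + (y : ℝ) ^ 2 := by
  have hc : (x, y) ∈ cone q := (ro_support h).1
  have hx := cone_neg hq hc
  have hy : y ≤ -2 := hc.1
  have h1 : α < tau (x, y) := by
    by_contra h3
    push Not at h3
    have h4 : tau (x + 1, y) ≤ tau (x, y) := tau_left (by omega)
    have h5 : tau (x + 1, y + 1) ≤ tau (x + 1, y) := tau_down (by omega)
    refine h (ro_eq_zero_of_const ?_ ?_)
    · rw [hα _ h3, hα _ (h4.trans h3)]
    · rw [hα _ (h4.trans h3), hα _ ((h5.trans h4).trans h3)]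
  have h2 := exp_tau_sq (P := (x, y)) (by
    intro h0
    have := congrArg Prod.snd h0
    simp only [Prod.snd_zero] at this
    omega)
  simp only at h2
  rw [← h2]
  exact pow_lt_pow_left₀ (Real.exp_lt_exp.2 h1) (Real.exp_pos _).le (by norm_num)

/-- `arctan (1 / q) ≥ 1 / (2 q)` -/
lemma ang_ge (hq : 1 ≤ q) : 1 / (2 * (q : ℝ)) ≤ ang q := by
  have hq' : (1 : ℝ) ≤ q := by exact_mod_cast hq
  have hq0 : (0 : ℝ) < q := by linarith
  unfold ang
  have hmono : MonotoneOn (fun t : ℝ => Real.arctan t - t / 2) (Set.Icc 0 1) := by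
    have hd : ∀ t : ℝ, HasDerivAt (fun t : ℝ => Real.arctan t - t / 2)
        (1 / (1 + t ^ 2) - 1 / 2) t := fun t =>
      (Real.hasDerivAt_arctan t).sub ((hasDerivAt_id t).div_const 2)
    refine monotoneOn_of_deriv_nonneg (convex_Icc _ _) ?_ ?_ ?_
    · exact (Real.continuous_arctan.sub (continuous_id.div_const 2)).continuousOn
    · exact fun t _ => (hd t).differentiableAt.differentiableWithinAt
    · intro t ht
      rw [interior_Icc] at ht
      rw [(hd t).deriv]
      have h1 : 1 + t ^ 2 ≤ 2 := by nlinarith [ht.1, ht.2]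
      have h2 : (1 : ℝ) / 2 ≤ 1 / (1 + t ^ 2) :=
        one_div_le_one_div_of_le (by positivity) h1
      linarith
  have h1 : (1 : ℝ) / q ≤ 1 := by rw [div_le_one hq0]; exact hq'
  have h2 := hmono (a := 0) (b := 1 / (q : ℝ)) ⟨le_rfl, zero_le_one⟩ ⟨by positivity, h1⟩
    (by positivity)
  simp only [Real.arctan_zero, zero_div, sub_zero] at h2
  have h3 : 1 / (2 * (q : ℝ)) = 1 / (q : ℝ) / 2 := by field_simp
  linarith

lemma real_ineq {a t : ℝ} (ha : 4 ≤ a) (ht0 : 0 < t) (ht1 : t ≤ 1) (hta : 1 + 3 * t ≤ a * t) :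
    (a * (1 + t)) ^ 2 + (a * (1 + t) * t + 1) ^ 2 ≤ a ^ 2 * (1 + 4 * t + 8 * t ^ 2) := by
  have h1 : 0 ≤ t ^ 2 * (6 - 2 * t - t ^ 2) := by
    refine mul_nonneg (sq_nonneg t) ?_
    nlinarith
  have h2 : 2 * (a * t) * (1 + t) + 1 ≤ 2 * a * (a * t) := by
    have h3 : 1 ≤ (a * t) * (2 * a - 2 * (1 + t)) := by
      have h4 : (1 : ℝ) * 1 ≤ (a * t) * (2 * a - 2 * (1 + t)) :=
        mul_le_mul (by linarith) (by linarith) zero_le_one (by linarith)
      linarith
    linarith
  have h3 : 0 ≤ a ^ 2 * (t ^ 2 * (6 - 2 * t - t ^ 2)) := mul_nonneg (sq_nonneg a) h1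
  have e : a ^ 2 * (1 + 4 * t + 8 * t ^ 2) - ((a * (1 + t)) ^ 2 + (a * (1 + t) * t + 1) ^ 2) =
      a ^ 2 * (t ^ 2 * (6 - 2 * t - t ^ 2)) + (2 * a * (a * t) - (2 * (a * t) * (1 + t) + 1)) := by
    ring
  linarith

/-- **Row ARM.1.** The charges of two profiles with slopes in `[0, 1]`, the first one constant off
`[log a - 1/2, log a - 4 ang q]`, the second one constant off `[log a + 4 ang q, log a + 1/2]`. -/
theorem arm1 (hq : 1 ≤ q) (hY : 0 < Y) (hV : 0 < V) {n0 r a : ℕ} (hn : 1 ≤ n0)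
    (ha : 3 * n0 ≤ a) (har : 12 * (a : ℝ) ≤ r) (haq : q + 3 ≤ a)
    (hA1 : Monotone ΓA) (hA2 : ∀ s t, s ≤ t → ΓA t - ΓA s ≤ t - s)
    (hA3 : ∀ t, t ≤ Real.log a - 1 / 2 → ΓA t = ΓA (Real.log a - 1 / 2))
    (hA4 : ∀ t, Real.log a - 4 * ang q ≤ t → ΓA t = ΓA (Real.log a - 4 * ang q))
    (hB1 : Monotone ΓB) (hB2 : ∀ s t, s ≤ t → ΓB t - ΓB s ≤ t - s)
    (hB3 : ∀ t, t ≤ Real.log a + 4 * ang q → ΓB t = ΓB (Real.log a + 4 * ang q))
    (hB4 : ∀ t, Real.log a + 1 / 2 ≤ t → ΓB t = ΓB (Real.log a + 1 / 2)) :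
    (∀ f, 0 ≤ ro Y V q ΓA f ∧ 0 ≤ ro Y V q ΓB f ∧
        ro Y V q ΓA f + ro Y V q ΓB f ≤ ro Y V q (clp n0 ((r : ℝ) / 4)) f) ∧
      (∀ f, f ∉ strip q 1 a → ro Y V q ΓA f = 0) ∧
      (∀ f, f ∉ strip q (a + a / q) (2 * a) → ro Y V q ΓB f = 0) := by
  have hq' : (1 : ℝ) ≤ q := by exact_mod_cast hq
  have hq0 : (0 : ℝ) < q := by linarith
  have hn' : (1 : ℝ) ≤ n0 := by exact_mod_cast hn
  have ha' : 3 * (n0 : ℝ) ≤ a := by exact_mod_cast ha
  have ha0 : (0 : ℝ) < a := by linarith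
  have haq' : (q : ℝ) + 3 ≤ a := by exact_mod_cast haq
  have hang := ang_pos hq
  have hang2 := ang_ge hq
  have hlog3 : (1 : ℝ) ≤ Real.log 3 := by
    rw [Real.le_log_iff_exp_le (by norm_num)]
    linarith [Real.exp_one_lt_d9]
  have hl1 : Real.log n0 ≤ Real.log a - 1 := by
    have h1 : Real.log (3 * n0) ≤ Real.log a := Real.log_le_log (by positivity) ha'
    rw [Real.log_mul (by norm_num) (by positivity)] at h1
    linarith
  have hl2 : Real.log a + 1 ≤ Real.log ((r : ℝ) / 4) := by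
    have h1 : Real.log (3 * a) ≤ Real.log ((r : ℝ) / 4) :=
      Real.log_le_log (by positivity) (by linarith)
    rw [Real.log_mul (by norm_num) (by positivity)] at h1
    linarith
  refine ⟨fun f => ⟨ro_nonneg hY hV hq hA1 f, ro_nonneg hY hV hq hB1 f, ?_⟩, ?_, ?_⟩
  · rw [← ro_add]
    refine ro_mono hY hV hq (clp_sub_mono ?_ ?_ ?_ (by linarith)) f
    · refine slope_add (c := Real.log a) hA2 hB2 (fun t ht => ?_) (fun t ht => ?_)
      · rw [hA4 t (by linarith), hA4 (Real.log a) (by linarith)]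
      · rw [hB3 t (by linarith), hB3 (Real.log a) (by linarith)]
    · intro t ht
      simp only [Pi.add_apply]
      rw [hA3 t (by linarith), hA3 (Real.log n0) (by linarith), hB3 t (by linarith),
        hB3 (Real.log n0) (by linarith)]
    · intro t ht
      simp only [Pi.add_apply]
      rw [hA4 t (by linarith), hA4 (Real.log ((r : ℝ) / 4)) (by linarith),
        hB4 t (by linarith), hB4 (Real.log ((r : ℝ) / 4)) (by linarith)]
  · rintro ⟨x, y⟩ hf
    by_contra h
    have hc : (x, y) ∈ cone q := (ro_support h).1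
    have hx := cone_neg hq hc
    refine hf ⟨hc, by simp only [Nat.cast_one]; omega, ?_⟩
    have h1 := ro_col_lt hq hA4 h
    rw [Real.exp_sub, Real.exp_log ha0, div_eq_mul_inv, ← Real.exp_neg] at h1
    have h2 : Real.exp (-(4 * ang q)) ≤ q / (q + 2) := by
      have h3 : 2 / (q : ℝ) ≤ 4 * ang q := by
        have : 2 / (q : ℝ) = 4 * (1 / (2 * q)) := by field_simp; norm_num
        rw [this]
        linarith
      have h4 : 2 / (q : ℝ) + 1 ≤ Real.exp (4 * ang q) :=
        (Real.add_one_le_exp _).trans (Real.exp_le_exp.2 h3)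
      rw [Real.exp_neg, inv_le_comm₀ (Real.exp_pos _) (by positivity), inv_div]
      refine le_trans (le_of_eq ?_) h4
      field_simp
      ring
    have h3 : (a : ℝ) * Real.exp (-(4 * ang q)) ≤ a - 1 := by
      have h4 : (a : ℝ) * Real.exp (-(4 * ang q)) ≤ a * (q / (q + 2)) :=
        mul_le_mul_of_nonneg_left h2 ha0.le
      have h5 : (a : ℝ) * (q / (q + 2)) = a - 2 * a / (q + 2) := by
        field_simp
        ring
      have h6 : 1 ≤ 2 * (a : ℝ) / (q + 2) := by
        rw [le_div_iff₀ (by positivity)]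
        linarith
      linarith
    have h4 : -(x : ℝ) < a := by linarith
    exact_mod_cast h4
  · rintro ⟨x, y⟩ hf
    by_contra h
    have hc : (x, y) ∈ cone q := (ro_support h).1
    have hx := cone_neg hq hc
    have hxR : (x : ℝ) ≤ -1 := by exact_mod_cast hx.1
    have hy : y ≤ -2 := hc.1
    have hyR : (y : ℝ) ≤ -2 := by exact_mod_cast hy
    refine hf ⟨hc, ?_, ?_⟩
    · by_contra hlt
      push Not at hlt
      have h1 := ro_exp_lt hq hB3 h
      rw [Real.exp_add, Real.exp_log ha0, mul_pow] at h1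
      -- upper bound of the column
      have h2 : -(x : ℝ) ≤ a * (1 + 1 / q) := by
        have h3 : -(x : ℝ) < ((a + a / q : ℕ) : ℝ) := by
          have h4 : (-x : ℤ) < ((a + a / q : ℕ) : ℤ) := hlt
          have h5 : ((-x : ℤ) : ℝ) < (((a + a / q : ℕ) : ℤ) : ℝ) := Int.cast_lt.2 h4
          rw [Int.cast_natCast, Int.cast_neg] at h5
          exact h5
        have h5 : (((a / q : ℕ)) : ℝ) ≤ (a : ℝ) / q := Nat.cast_div_le
        push_cast at h3
        have h6 : (a : ℝ) * (1 + 1 / q) = a + a / q := by ring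
        linarith
      have h3 : -(y : ℝ) ≤ -x / q + 1 := by
        have h4 : (q : ℤ) * (-1 - y) ≤ -x := hc.2
        have h5 : (q : ℝ) * (-1 - y) ≤ -x := by exact_mod_cast h4
        rw [← sub_le_iff_le_add, le_div_iff₀ hq0]
        linarith
      have h4 : (1 : ℝ) + 4 / q + 8 / q ^ 2 ≤ Real.exp (4 * ang q) ^ 2 := by
        rw [← Real.exp_nat_mul]
        have h5 : 4 / (q : ℝ) ≤ ((2 : ℕ) : ℝ) * (4 * ang q) := by
          have : 4 / (q : ℝ) = 8 * (1 / (2 * q)) := by field_simp; norm_num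
          push_cast
          rw [this]
          linarith
        refine le_trans ?_ (Real.exp_le_exp.2 h5)
        refine le_trans (le_of_eq ?_) (Real.quadratic_le_exp_of_nonneg (by positivity))
        field_simp
        ring
      set t : ℝ := 1 / q with ht
      have ht0 : 0 < t := by positivity
      have ht1 : t ≤ 1 := by rw [ht, div_le_one hq0]; exact hq'
      have hta : 1 + 3 * t ≤ a * t := by
        have h5 : ((q : ℝ) + 3) * t ≤ a * t := mul_le_mul_of_nonneg_right haq' ht0.le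
        have h6 : (q : ℝ) * t = 1 := by rw [ht]; field_simp
        nlinarith
      have h5 : (x : ℝ) ^ 2 ≤ (a * (1 + t)) ^ 2 := by
        rw [← neg_sq]
        exact pow_le_pow_left₀ (by linarith) h2 2
      have h6 : (y : ℝ) ^ 2 ≤ (a * (1 + t) * t + 1) ^ 2 := by
        rw [← neg_sq]
        refine pow_le_pow_left₀ (by linarith) (h3.trans ?_) 2
        have h7 : -(x : ℝ) / q = -x * t := by rw [ht]; ring
        rw [h7]
        have := mul_le_mul_of_nonneg_right h2 ht0.le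
        linarith
      have h7 : (1 : ℝ) + 4 * t + 8 * t ^ 2 ≤ Real.exp (4 * ang q) ^ 2 := by
        refine le_trans (le_of_eq ?_) h4
        rw [ht]
        ring
      have h8 : (a : ℝ) ^ 2 * (1 + 4 * t + 8 * t ^ 2) < (a * (1 + t)) ^ 2 +
          (a * (1 + t) * t + 1) ^ 2 := by
        have := mul_le_mul_of_nonneg_left h7 (sq_nonneg (a : ℝ))
        linarith
      have := real_ineq (by linarith) ht0 ht1 hta
      linarith
    · have h1 := ro_col_lt hq hB4 h
      rw [Real.exp_add, Real.exp_log ha0] at h1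
      have h2 : Real.exp (1 / 2) < 5 / 3 := by
        have h3 : Real.exp (1 / 2) ^ 2 < (5 / 3) ^ 2 := by
          rw [← Real.exp_nat_mul]
          have : ((2 : ℕ) : ℝ) * (1 / 2) = 1 := by norm_num
          rw [this]
          refine Real.exp_one_lt_d9.trans ?_
          norm_num
        exact lt_of_pow_lt_pow_left₀ 2 (by norm_num) h3
      have h3 : (a : ℝ) * Real.exp (1 / 2) ≤ a * (5 / 3) :=
        mul_le_mul_of_nonneg_left h2.le ha0.le
      have h4 : -(x : ℝ) < 2 * a := by linarith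
      have h5 : (-x : ℤ) < ((2 * a : ℕ) : ℤ) := by exact_mod_cast h4
      exact h5

end Vale.Agent.P159.T1.D
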